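import Vale.Agent.P295.Defs

namespace Vale.Agent.P295

open MvPolynomial

variable {σ τ : Type}

/-- Chain rule: a derivation applied after an algebra homomorphism. -/
theorem chain_rule [Fintype σ] (S : MvPolynomial σ ℂ →ₐ[ℂ] MvPolynomial τ ℂ)
    (D : Derivation ℂ (MvPolynomial τ ℂ) (MvPolynomial τ ℂ)) (p : MvPolynomial σ ℂ) :
    D (S p) = ∑ j, S (pderiv j p) * D (S (X j)) := by
  induction p using MvPolynomial.induction_on with
  | C a =>
    have : S (C a) = C a := S.commutes a
    simp [this]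
  | add p q hp hq =>
    simp only [map_add, hp, hq, add_mul, Finset.sum_add_distrib]
  | mul_X p k hp =>
    classical
    simp only [map_mul, Derivation.leibniz, smul_eq_mul, map_add, hp,
      pderiv_X, add_mul, Finset.sum_add_distrib]
    congr 1
    · simp [Pi.single_apply, Finset.sum_ite_eq]
    · rw [Finset.mul_sum]
      refine Finset.sum_congr rfl fun j _ => by ring

/-- A coordinate has a unimodular gradient. -/
theorem IsCoordinate.unimodular_gradient [Fintype σ] {f : MvPolynomial σ ℂ}
    (hf : IsCoordinate f) :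
    ∃ g : σ → MvPolynomial σ ℂ, ∑ j, pderiv j f * g j = 1 := by
  obtain ⟨φ, i, hφ⟩ := hf
  refine ⟨fun j => φ.symm (pderiv i (φ (X j))), ?_⟩
  have h := chain_rule (φ : MvPolynomial σ ℂ →ₐ[ℂ] MvPolynomial σ ℂ) (pderiv i) f
  simp only [AlgEquiv.coe_toAlgHom, hφ, pderiv_X_self] at h
  have h2 := congrArg φ.symm h
  simp only [map_one, map_sum, map_mul, AlgEquiv.symm_apply_apply] at h2
  exact h2.symm

/-- The gradient of a stable coordinate vanishes nowhere. -/
theorem IsStableCoordinate.gradient_ne_zero {n : ℕ} {f : MvPolynomial (Fin n) ℂ}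
    (hf : IsStableCoordinate f) (a : Fin n → ℂ) : ∃ i, eval a (pderiv i f) ≠ 0 := by
  obtain ⟨m, -, hm⟩ := hf
  obtain ⟨g, hg⟩ := hm.unimodular_gradient
  by_contra hcon
  push Not at hcon
  rw [Fintype.sum_sum_type] at hg
  have h1 : ∀ j : Fin m, pderiv (Sum.inr j) (rename (Sum.inl : Fin n → Fin n ⊕ Fin m) f) = 0 := by
    intro j
    apply pderiv_eq_zero_of_notMem_vars
    intro hj
    classical
    have := vars_rename (Sum.inl : Fin n → Fin n ⊕ Fin m) f hj
    simp at this
  have h2 : ∀ j : Fin n, pderiv (Sum.inl j) (rename (Sum.inl : Fin n → Fin n ⊕ Fin m) f)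
      = rename Sum.inl (pderiv j f) := fun j => pderiv_rename Sum.inl_injective j f
  simp only [h1, h2, zero_mul, Finset.sum_const_zero, add_zero] at hg
  have h3 := congrArg (eval (Sum.elim a (fun _ => 0) : Fin n ⊕ Fin m → ℂ)) hg
  simp only [map_sum, map_mul, eval_rename, map_one] at h3
  have h4 : (Sum.elim a (fun _ => 0) : Fin n ⊕ Fin m → ℂ) ∘ Sum.inl = a := by
    ext; simp
  simp [h4, hcon] at h3

end Vale.Agent.P295
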