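import Vale.Agent.P295.Rectify

namespace Vale.Agent.P295

open MvPolynomial

variable {σ : Type}

theorem finsupp_degree_le_one (m : σ →₀ ℕ) (h : m.degree ≤ 1) :
    m = 0 ∨ ∃ j, m = Finsupp.single j 1 := by
  classical
  rcases eq_or_ne m 0 with h0 | h0
  · exact Or.inl h0
  · right
    obtain ⟨j, hj⟩ := Finsupp.support_nonempty_iff.mpr h0
    have hj' : m j ≠ 0 := by simpa using hj
    have h1 : (m - Finsupp.single j 1) + Finsupp.single j 1 = m := by
      refine tsub_add_cancel_of_le ?_
      rw [Finsupp.single_le_iff]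
      omega
    have h2 : (m - Finsupp.single j 1).degree + 1 = m.degree := by
      conv_rhs => rw [← h1]
      rw [map_add, Finsupp.degree_single]
    have h3 : (m - Finsupp.single j 1).degree = 0 := by omega
    rw [Finsupp.degree_eq_zero_iff] at h3
    refine ⟨j, ?_⟩
    rw [← h1, h3, zero_add]

/-- A linear functional normalised by `L 1 = 1` agrees on polynomials of degree at most one with
evaluation at the point `(L x_j)_j`. -/
theorem functional_eq_eval (L : MvPolynomial σ ℂ →ₗ[ℂ] ℂ) (h1 : L 1 = 1)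
    (q : MvPolynomial σ ℂ) (hq : q.totalDegree ≤ 1) :
    L q = eval (fun j => L (X j)) q := by
  classical
  conv_lhs => rw [q.as_sum]
  conv_rhs => rw [q.as_sum]
  rw [map_sum, map_sum]
  refine Finset.sum_congr rfl fun m hm => ?_
  have hdeg : m.degree ≤ 1 := by
    have := le_totalDegree hm
    exact le_trans this hq
  rcases finsupp_degree_le_one m hdeg with rfl | ⟨j, rfl⟩
  · have : (monomial (0 : σ →₀ ℕ) (coeff 0 q)) = (coeff 0 q) • (1 : MvPolynomial σ ℂ) := by
      rw [smul_eq_C_mul, mul_one]; rfl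
    rw [this, map_smul, h1, smul_eval]
    simp
  · have : (monomial (Finsupp.single j 1) (coeff (Finsupp.single j 1) q))
        = (coeff (Finsupp.single j 1) q) • (X j : MvPolynomial σ ℂ) := by
      rw [smul_eq_C_mul, C_mul_X_eq_monomial]
    rw [this, map_smul, smul_eval]
    simp

theorem totalDegree_pderiv_le (i : σ) (f : MvPolynomial σ ℂ) :
    (pderiv i f).totalDegree ≤ f.totalDegree - 1 := by
  classical
  refine Finset.sup_le fun m hm => ?_
  rw [mem_support_iff, coeff_pderiv] at hm
  have h1 : coeff (m + Finsupp.single i 1) f ≠ 0 := fun h => hm (by rw [h, zero_mul])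
  have h2 := le_totalDegree (mem_support_iff.mpr h1)
  have h3 : (m + Finsupp.single i 1).degree = m.degree + 1 := by
    rw [map_add, Finsupp.degree_single]
  have h4 : m.degree + 1 ≤ f.totalDegree := h3 ▸ h2
  have h5 : m.degree ≤ f.totalDegree - 1 := by omega
  exact h5

/-- For polynomials of degree at most two, a nowhere vanishing gradient forces `D_v f = 1` for some
constant vector `v`. -/
theorem exists_const_field_of_deg_le_two [Fintype σ] {f : MvPolynomial σ ℂ}
    (hdeg : f.totalDegree ≤ 2) (hgrad : ∀ a : σ → ℂ, ∃ i, eval a (pderiv i f) ≠ 0) :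
    ∃ v : σ → ℂ, ∑ j, C (v j) * pderiv j f = C 1 := by
  classical
  set W : Submodule ℂ (MvPolynomial σ ℂ) := Submodule.span ℂ (Set.range fun i => pderiv i f)
    with hW
  have h1W : (1 : MvPolynomial σ ℂ) ∈ W := by
    by_contra hcon
    obtain ⟨L, hL1, hLW⟩ := Submodule.exists_le_ker_of_notMem hcon
    set L' : MvPolynomial σ ℂ →ₗ[ℂ] ℂ := (L 1)⁻¹ • L with hL'
    have hL'1 : L' 1 = 1 := by simp [hL', hL1]
    obtain ⟨i, hi⟩ := hgrad (fun j => L' (X j))
    apply hi
    rw [← functional_eq_eval L' hL'1 _ (le_trans (totalDegree_pderiv_le i f) (by omega))]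
    have : pderiv i f ∈ W := Submodule.subset_span ⟨i, rfl⟩
    have h2 : L (pderiv i f) = 0 := hLW this
    simp [hL', h2]
  rw [hW, Submodule.mem_span_range_iff_exists_fun] at h1W
  obtain ⟨v, hv⟩ := h1W
  refine ⟨v, ?_⟩
  rw [C_1, ← hv]
  refine Finset.sum_congr rfl fun j _ => by rw [smul_eq_C_mul]

end Vale.Agent.P295
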