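import Vale.Agent.P295.Gradient

namespace Vale.Agent.P295

open MvPolynomial

variable {σ : Type}

/-- In characteristic zero a polynomial with vanishing `i`-th partial derivative does not
involve the variable `i`. -/
theorem notMem_vars_of_pderiv_eq_zero {i : σ} {h : MvPolynomial σ ℂ} (hh : pderiv i h = 0) :
    i ∉ h.vars := by
  classical
  intro hi
  rw [mem_vars_iff_mem_support] at hi
  obtain ⟨d, hd, hid⟩ := hi
  have hdi : d i ≠ 0 := by simpa using hid
  have h1 : d = (d - Finsupp.single i 1) + Finsupp.single i 1 := by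
    refine (tsub_add_cancel_of_le ?_).symm
    rw [Finsupp.single_le_iff]
    omega
  have h2 := coeff_pderiv h (d - Finsupp.single i 1) (i := i)
  rw [hh, ← h1] at h2
  simp only [coeff_zero] at h2
  rw [mem_support_iff] at hd
  have h3 : (((d - Finsupp.single i 1 : σ →₀ ℕ) i : ℂ) + 1) ≠ 0 := by
    have : (((d - Finsupp.single i 1 : σ →₀ ℕ) i + 1 : ℕ) : ℂ) ≠ 0 :=
      Nat.cast_ne_zero.mpr (Nat.succ_ne_zero _)
    simpa using this
  rcases mul_eq_zero.mp h2.symm with h4 | h4
  · exact hd h4
  · exact h3 h4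

/-- An algebra endomorphism fixing all variables occurring in `h` fixes `h`. -/
theorem aeval_eq_self_of_vars {h : MvPolynomial σ ℂ} (g : σ → MvPolynomial σ ℂ)
    (hg : ∀ j ∈ h.vars, g j = X j) : aeval g h = h := by
  have h1 : aeval g h = aeval (X : σ → MvPolynomial σ ℂ) h := by
    simp only [aeval_def, ← coe_eval₂Hom]
    exact eval₂Hom_congr' rfl (fun j hj _ => hg j hj) rfl
  rw [h1, aeval_X_left, AlgHom.id_apply]

/-- `β x_i + h` with `h` free of `x_i` and `β ≠ 0` is a coordinate. -/
theorem isCoordinate_of_pderiv_eq_C {i : σ} {q : MvPolynomial σ ℂ} {β : ℂ} (hβ : β ≠ 0)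
    (hq : pderiv i q = C β) : IsCoordinate q := by
  classical
  set h : MvPolynomial σ ℂ := q - C β * X i with hdef
  have hh : pderiv i h = 0 := by
    simp [hdef, hq]
  have hi : i ∉ h.vars := notMem_vars_of_pderiv_eq_zero hh
  have hqh : q = C β * X i + h := by rw [hdef]; ring
  let gT : σ → MvPolynomial σ ℂ := fun j => if j = i then C β⁻¹ * (X i - h) else X j
  let gT' : σ → MvPolynomial σ ℂ := fun j => if j = i then C β * X i + h else X j
  have hTh : aeval gT h = h := aeval_eq_self_of_vars gT (fun j hj => by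
    have : j ≠ i := fun e => hi (e ▸ hj)
    simp [gT, this])
  have hT'h : aeval gT' h = h := aeval_eq_self_of_vars gT' (fun j hj => by
    have : j ≠ i := fun e => hi (e ▸ hj)
    simp [gT', this])
  have hCC : (C β * C β⁻¹ : MvPolynomial σ ℂ) = 1 := by
    rw [← C_mul, mul_inv_cancel₀ hβ, C_1]
  have hCC' : (C β⁻¹ * C β : MvPolynomial σ ℂ) = 1 := by
    rw [mul_comm]; exact hCC
  have e1 : (aeval gT).comp (aeval gT') = AlgHom.id ℂ (MvPolynomial σ ℂ) := by
    refine MvPolynomial.algHom_ext fun j => ?_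
    by_cases hj : j = i
    · subst hj
      simp only [AlgHom.comp_apply, aeval_X, gT', if_true, map_add, map_mul, hTh, aeval_C,
        AlgHom.id_apply, algebraMap_eq]
      simp only [gT, if_true]
      calc C β * (C β⁻¹ * (X j - h)) + h = (C β * C β⁻¹) * (X j - h) + h := by ring
        _ = X j := by rw [hCC]; ring
    · simp [gT, gT', hj]
  have e2 : (aeval gT').comp (aeval gT) = AlgHom.id ℂ (MvPolynomial σ ℂ) := by
    refine MvPolynomial.algHom_ext fun j => ?_
    by_cases hj : j = i
    · subst hj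
      simp only [AlgHom.comp_apply, aeval_X, gT, if_true, map_sub, map_mul, hT'h, aeval_C,
        AlgHom.id_apply, algebraMap_eq]
      simp only [gT', if_true]
      calc C β⁻¹ * (C β * X j + h - h) = (C β⁻¹ * C β) * X j := by ring
        _ = X j := by rw [hCC']; ring
    · simp [gT, gT', hj]
  refine ⟨AlgEquiv.ofAlgHom (aeval gT) (aeval gT') e1 e2, i, ?_⟩
  simp only [AlgEquiv.ofAlgHom_apply]
  rw [hqh]
  simp only [map_add, map_mul, aeval_X, hTh, aeval_C, algebraMap_eq]
  simp only [gT, if_true]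
  calc C β * (C β⁻¹ * (X i - h)) + h = (C β * C β⁻¹) * (X i - h) + h := by ring
    _ = X i := by rw [hCC]; ring

/-- Being a coordinate is invariant under automorphisms. -/
theorem IsCoordinate.of_algEquiv {f : MvPolynomial σ ℂ}
    (S : MvPolynomial σ ℂ ≃ₐ[ℂ] MvPolynomial σ ℂ) (h : IsCoordinate (S f)) : IsCoordinate f := by
  obtain ⟨φ, i, hφ⟩ := h
  exact ⟨S.trans φ, i, by simpa using hφ⟩

/-- If some constant-coefficient vector field `v` has `D_v f = β ≠ 0`, then `f` is a coordinate. -/
theorem isCoordinate_of_const_field [Fintype σ] {f : MvPolynomial σ ℂ} (v : σ → ℂ) {β : ℂ}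
    (hβ : β ≠ 0) (hv : ∑ j, C (v j) * pderiv j f = C β) : IsCoordinate f := by
  classical
  have hex : ∃ i, v i ≠ 0 := by
    by_contra hcon
    push Not at hcon
    simp only [hcon, C_0, zero_mul, Finset.sum_const_zero] at hv
    exact hβ (C_injective σ ℂ (by simpa using hv.symm))
  obtain ⟨i, hi⟩ := hex
  let gS : σ → MvPolynomial σ ℂ := fun j => (if j = i then 0 else X j) + C (v j) * X i
  let gS' : σ → MvPolynomial σ ℂ := fun j =>
    if j = i then C (v i)⁻¹ * X i else X j - C (v j) * (C (v i)⁻¹ * X i)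
  have hCC : (C (v i) * C (v i)⁻¹ : MvPolynomial σ ℂ) = 1 := by
    rw [← C_mul, mul_inv_cancel₀ hi, C_1]
  have hCC' : (C (v i)⁻¹ * C (v i) : MvPolynomial σ ℂ) = 1 := by
    rw [mul_comm]; exact hCC
  have hSi : aeval gS (X i : MvPolynomial σ ℂ) = C (v i) * X i := by simp [gS]
  have hS'i : aeval gS' (X i : MvPolynomial σ ℂ) = C (v i)⁻¹ * X i := by simp [gS']
  have e1 : (aeval gS).comp (aeval gS') = AlgHom.id ℂ (MvPolynomial σ ℂ) := by
    refine MvPolynomial.algHom_ext fun j => ?_
    by_cases hj : j = i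
    · subst hj
      simp only [AlgHom.comp_apply, hS'i, map_mul, hSi, aeval_C, algebraMap_eq, AlgHom.id_apply]
      calc C (v j)⁻¹ * (C (v j) * X j) = (C (v j)⁻¹ * C (v j)) * X j := by ring
        _ = X j := by rw [hCC']; ring
    · have h1 : aeval gS' (X j : MvPolynomial σ ℂ) = X j - C (v j) * (C (v i)⁻¹ * X i) := by
        simp [gS', hj]
      have h2 : aeval gS (X j : MvPolynomial σ ℂ) = X j + C (v j) * X i := by
        simp [gS, hj]
      simp only [AlgHom.comp_apply, h1, map_sub, map_mul, h2, hSi, aeval_C, algebraMap_eq,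
        AlgHom.id_apply]
      calc X j + C (v j) * X i - C (v j) * (C (v i)⁻¹ * (C (v i) * X i))
          = X j + C (v j) * X i - C (v j) * ((C (v i)⁻¹ * C (v i)) * X i) := by ring
        _ = X j := by rw [hCC']; ring
  have e2 : (aeval gS').comp (aeval gS) = AlgHom.id ℂ (MvPolynomial σ ℂ) := by
    refine MvPolynomial.algHom_ext fun j => ?_
    by_cases hj : j = i
    · subst hj
      simp only [AlgHom.comp_apply, hS'i, map_mul, hSi, aeval_C, algebraMap_eq, AlgHom.id_apply]
      calc C (v j) * (C (v j)⁻¹ * X j) = (C (v j) * C (v j)⁻¹) * X j := by ring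
        _ = X j := by rw [hCC]; ring
    · have h1 : aeval gS' (X j : MvPolynomial σ ℂ) = X j - C (v j) * (C (v i)⁻¹ * X i) := by
        simp [gS', hj]
      have h2 : aeval gS (X j : MvPolynomial σ ℂ) = X j + C (v j) * X i := by
        simp [gS, hj]
      simp only [AlgHom.comp_apply, h2, map_add, map_mul, h1, hS'i, aeval_C, algebraMap_eq,
        AlgHom.id_apply]
      ring
  let S : MvPolynomial σ ℂ ≃ₐ[ℂ] MvPolynomial σ ℂ := AlgEquiv.ofAlgHom (aeval gS) (aeval gS') e1 e2
  apply IsCoordinate.of_algEquiv S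
  apply isCoordinate_of_pderiv_eq_C (i := i) hβ
  have h := chain_rule (aeval gS) (pderiv i) f
  have h3 : ∀ j, pderiv i (aeval gS (X j : MvPolynomial σ ℂ)) = C (v j) := by
    intro j
    by_cases hj : j = i
    · subst hj
      simp [gS]
    · simp [gS, hj, pderiv_X_of_ne hj]
  simp only [h3] at h
  have h4 : S f = aeval gS f := rfl
  rw [h4, h]
  have h5 := congrArg (aeval gS) hv
  simp only [map_sum, map_mul, aeval_C, algebraMap_eq] at h5
  rw [← h5]
  refine Finset.sum_congr rfl fun j _ => by ring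

end Vale.Agent.P295
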